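import Mathlib

/-!
# Pair counting by cells (P171, superstability and Lebowitz-Penrose counting steps)

Self-contained finite combinatorics, Mathlib only.  `ι` is a finite type of particles,
`c : ι → κ` sends a particle to the index of its cell (`κ` an additive commutative group, e.g.
`Fin 3 → ℤ`).  `sameCell c` is the number of ordered pairs of particles (diagonal included) in
one cell, i.e. `∑ over cells of (occupation number)^2`.

* `pairs_shift_le`: the number of ordered pairs whose cell indices differ by a fixed `v` is at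
  most `sameCell c` (the shift argument `∑ n_s n_(s+v) ≤ ∑ n_s^2`).
* `pairs_diff_mem_le`: the number of ordered pairs whose cell-index difference lies in a finite
  set `S` is at most `S.card * sameCell c`.
* `card_sq_le_sameCell`: Cauchy-Schwarz, `N^2 ≤ (number of cells) * sameCell c`.
* `sameCell_eq_sum_sq`: `sameCell c = ∑ s ∈ image c, n_s^2`.
* `card_box3`: the box `[-k, k]^3` in `Fin 3 → ℤ` has `(2k+1)^3` points.
* `floor_div_sub_le`: if `|x - y| < R` then the cell indices `⌊x / l⌋`, `⌊y / l⌋` differ by at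
  most `⌈R / l⌉`.
-/

namespace Vale.Agent.H91.P171

open Finset

variable {ι κ : Type*} [Fintype ι] [DecidableEq κ]

/-- Occupation number of the cell `s`. -/
def occ (c : ι → κ) (s : κ) : ℕ := (univ.filter fun i => c i = s).card

/-- Number of ordered pairs of particles in one cell (diagonal included). -/
def sameCell (c : ι → κ) : ℕ := ∑ i, occ c (c i)

theorem sameCell_eq_sum_sq (c : ι → κ) :
    sameCell c = ∑ s ∈ univ.image c, occ c s ^ 2 := by
  unfold sameCell
  rw [Finset.sum_comp (fun s => occ c s) c]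
  refine Finset.sum_congr rfl fun s _ => ?_
  simp [occ, sq]

theorem occ_ne_zero_mem (c : ι → κ) (s : κ) (h : occ c s ≠ 0) : s ∈ univ.image c := by
  unfold occ at h
  obtain ⟨i, hi⟩ := Finset.card_pos.mp (Nat.pos_of_ne_zero h)
  rw [Finset.mem_filter] at hi
  exact Finset.mem_image.mpr ⟨i, Finset.mem_univ _, hi.2⟩

theorem sameCell_eq_card [DecidableEq ι] (c : ι → κ) :
    sameCell c = (univ.filter fun p : ι × ι => c p.2 = c p.1).card := by
  unfold sameCell occ
  rw [Finset.card_filter, Fintype.sum_prod_type]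
  refine Finset.sum_congr rfl fun i _ => ?_
  rw [Finset.card_filter]

variable [AddCommGroup κ]

/-- The shift argument: `∑_s n_s n_(s+v) ≤ ∑_s n_s^2`. -/
theorem shift_sum_le (c : ι → κ) (v : κ) : ∑ i, occ c (c i + v) ≤ sameCell c := by
  rw [sameCell_eq_sum_sq, Finset.sum_comp (fun s => occ c (s + v)) c]
  have h1 : ∀ s ∈ univ.image c, (univ.filter fun i => c i = s).card • occ c (s + v)
      ≤ (occ c s ^ 2 + occ c (s + v) ^ 2) / 2 := by
    intro s _
    have : (univ.filter fun i => c i = s).card = occ c s := rfl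
    rw [this, smul_eq_mul]
    rw [Nat.le_div_iff_mul_le (by norm_num)]
    zify
    nlinarith [sq_nonneg ((occ c s : ℤ) - occ c (s + v))]
  have h2 : ∑ s ∈ univ.image c, occ c (s + v) ^ 2 ≤ ∑ s ∈ univ.image c, occ c s ^ 2 := by
    have hinj : Set.InjOn (fun s : κ => s + v) (univ.image c : Finset κ) := by
      intro a _ b _ hab
      exact add_right_cancel hab
    have := Finset.sum_image (f := fun s => occ c s ^ 2) (s := univ.image c)
      (g := fun s : κ => s + v) hinj
    rw [← this]
    apply Finset.sum_le_sum_of_ne_zero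
    intro s _ hs
    apply occ_ne_zero_mem
    intro h0
    rw [h0] at hs
    simp at hs
  have h3 : ∑ s ∈ univ.image c, (univ.filter fun i => c i = s).card • occ c (s + v) ≤
      ∑ s ∈ univ.image c, (occ c s ^ 2 + occ c (s + v) ^ 2) / 2 := Finset.sum_le_sum h1
  have h4 : ∑ s ∈ univ.image c, (occ c s ^ 2 + occ c (s + v) ^ 2) / 2 ≤
      (∑ s ∈ univ.image c, (occ c s ^ 2 + occ c (s + v) ^ 2)) / 2 := by
    rw [Nat.le_div_iff_mul_le (by norm_num), Finset.sum_mul]
    exact Finset.sum_le_sum fun s _ => Nat.div_mul_le_self _ _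
  have h5 : (∑ s ∈ univ.image c, (occ c s ^ 2 + occ c (s + v) ^ 2)) / 2 ≤
      ∑ s ∈ univ.image c, occ c s ^ 2 := by
    rw [Finset.sum_add_distrib]
    omega
  exact h3.trans (h4.trans h5)

/-- Number of ordered pairs whose cell indices differ by exactly `v`. -/
theorem pairs_shift_le [DecidableEq ι] (c : ι → κ) (v : κ) :
    (univ.filter fun p : ι × ι => c p.2 = c p.1 + v).card ≤ sameCell c := by
  refine le_trans (le_of_eq ?_) (shift_sum_le c v)
  unfold occ
  rw [Finset.card_filter, Fintype.sum_prod_type]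
  refine Finset.sum_congr rfl fun i _ => ?_
  rw [Finset.card_filter]

/-- Number of ordered pairs whose cell-index difference lies in `S`. -/
theorem pairs_diff_mem_le [DecidableEq ι] (c : ι → κ) (S : Finset κ) :
    (univ.filter fun p : ι × ι => c p.2 - c p.1 ∈ S).card ≤ S.card * sameCell c := by
  have hsub : (univ.filter fun p : ι × ι => c p.2 - c p.1 ∈ S) ⊆
      S.biUnion fun v => univ.filter fun p : ι × ι => c p.2 = c p.1 + v := by
    intro p hp
    rw [Finset.mem_filter] at hp
    rw [Finset.mem_biUnion]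
    refine ⟨c p.2 - c p.1, hp.2, ?_⟩
    rw [Finset.mem_filter]
    exact ⟨Finset.mem_univ _, by abel⟩
  calc (univ.filter fun p : ι × ι => c p.2 - c p.1 ∈ S).card
      ≤ (S.biUnion fun v => univ.filter fun p : ι × ι => c p.2 = c p.1 + v).card :=
        Finset.card_le_card hsub
    _ ≤ ∑ v ∈ S, (univ.filter fun p : ι × ι => c p.2 = c p.1 + v).card := Finset.card_biUnion_le
    _ ≤ ∑ _v ∈ S, sameCell c := Finset.sum_le_sum fun v _ => pairs_shift_le c v
    _ = S.card * sameCell c := by rw [Finset.sum_const, smul_eq_mul]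

omit [AddCommGroup κ] in
/-- Cauchy-Schwarz: `N^2 ≤ (number of available cells) * ∑ n_s^2`. -/
theorem card_sq_le_sameCell (c : ι → κ) (T : Finset κ) (hT : ∀ i, c i ∈ T) :
    Fintype.card ι ^ 2 ≤ T.card * sameCell c := by
  have hN : Fintype.card ι = ∑ s ∈ T, occ c s := by
    unfold occ
    rw [← Finset.card_univ]
    exact Finset.card_eq_sum_card_fiberwise fun i _ => hT i
  have hQ : sameCell c ≤ ∑ s ∈ T, occ c s ^ 2 ∧ ∑ s ∈ T, occ c s ^ 2 ≤ sameCell c := by
    rw [sameCell_eq_sum_sq]
    constructor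
    · apply Finset.sum_le_sum_of_subset
      intro s hs
      obtain ⟨i, _, rfl⟩ := Finset.mem_image.mp hs
      exact hT i
    · apply Finset.sum_le_sum_of_ne_zero
      intro s _ hs
      apply occ_ne_zero_mem
      intro h0
      rw [h0] at hs
      simp at hs
  rw [hN]
  calc (∑ s ∈ T, occ c s) ^ 2 ≤ T.card * ∑ s ∈ T, occ c s ^ 2 := sq_sum_le_card_mul_sum_sq
    _ ≤ T.card * sameCell c := Nat.mul_le_mul_left _ hQ.2

/-- The box `[-k, k]^3` of cell-index differences. -/
noncomputable def box3 (k : ℕ) : Finset (Fin 3 → ℤ) :=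
  Fintype.piFinset fun _ => Finset.Icc (-(k : ℤ)) k

theorem card_box3 (k : ℕ) : (box3 k).card = (2 * k + 1) ^ 3 := by
  unfold box3
  rw [Fintype.card_piFinset]
  simp only [Int.card_Icc, Finset.prod_const, Finset.card_univ, Fintype.card_fin]
  congr 1
  omega

theorem mem_box3 (k : ℕ) (v : Fin 3 → ℤ) : v ∈ box3 k ↔ ∀ a, |v a| ≤ k := by
  unfold box3
  rw [Fintype.mem_piFinset]
  simp only [Finset.mem_Icc, abs_le]

/-- Points at distance `< R` in one coordinate have cell indices (cells of side `l`) that differ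
by at most `⌈R / l⌉`. -/
theorem floor_div_sub_le (x y R l : ℝ) (hl : 0 < l) (h : |x - y| < R) :
    |⌊x / l⌋ - ⌊y / l⌋| ≤ ⌈R / l⌉ := by
  have h1 : |x / l - y / l| < R / l := by
    rw [← sub_div, abs_div, abs_of_pos hl]
    exact div_lt_div_of_pos_right h hl
  rw [abs_lt] at h1
  have hx := Int.floor_le (x / l)
  have hx' := Int.lt_floor_add_one (x / l)
  have hy := Int.floor_le (y / l)
  have hy' := Int.lt_floor_add_one (y / l)
  have hc := Int.le_ceil (R / l)
  rw [abs_le]
  constructor
  · have : ((-⌈R / l⌉ - 1 : ℤ) : ℝ) < ((⌊x / l⌋ - ⌊y / l⌋ : ℤ) : ℝ) := by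
      push_cast
      linarith
    have := Int.cast_lt.mp this
    omega
  · have : ((⌊x / l⌋ - ⌊y / l⌋ : ℤ) : ℝ) < ((⌈R / l⌉ + 1 : ℤ) : ℝ) := by
      push_cast
      linarith
    have := Int.cast_lt.mp this
    omega

end Vale.Agent.H91.P171
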