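import Mathlib

/-!
# Exponentiating a pointwise energy inequality (P171, step LP1-E => LP1-X)

Mathlib only, no project definitions.  `x : Fin N → E` is a configuration, `u`, `v` are real pair
energies, `S a` (one relation for every shift `a : ι`) says that two points share a cell of the
grid `a`; it is reflexive.  From the real inequality

`q * ∑ a, ((∑ i j, i ≠ j, S a: v) - 2 g #{(i,j) : S a (x i) (x j)}) ≤ ∑ i j, i ≠ j: u`

we get the inequality between the products of the pair factors `exp(-u/2)`, `exp(g) exp(-v/2)`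
that the measure step (generalised Hoelder over the shifts) needs.
-/

open scoped ENNReal

namespace Vale.Agent.H91.P171

theorem exp_pair_prod {N : ℕ} (f : Fin N → Fin N → ℝ) :
    ∏ i, ∏ j, ENNReal.ofReal (Real.exp (f i j)) =
      ENNReal.ofReal (Real.exp (∑ i, ∑ j, f i j)) := by
  rw [Real.exp_sum, ENNReal.ofReal_prod_of_nonneg (fun i _ => (Real.exp_pos _).le)]
  refine Finset.prod_congr rfl fun i _ => ?_
  rw [Real.exp_sum, ENNReal.ofReal_prod_of_nonneg (fun j _ => (Real.exp_pos _).le)]

theorem exp_pair {E ι : Type*} [Fintype ι] {N : ℕ} (x : Fin N → E) (u v : E → E → ℝ)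
    (S : ι → E → E → Prop) [∀ a y z, Decidable (S a y z)] (hS : ∀ a y, S a y y)
    (g q : ℝ)
    (hE : q * ∑ a, ((∑ i, ∑ j, if i = j then 0 else if S a (x i) (x j) then v (x i) (x j) else 0)
        - 2 * g * ((Finset.univ.filter
          (fun p : Fin N × Fin N => S a (x p.1) (x p.2))).card : ℝ))
      ≤ ∑ i, ∑ j, if i = j then 0 else u (x i) (x j)) :
    (∏ i, ∏ j, if i = j then 1 else ENNReal.ofReal (Real.exp (-(u (x i) (x j)) / 2)))
      ≤ ∏ a, (ENNReal.ofReal (Real.exp g) ^ N *
          ∏ i, ∏ j, if i = j then 1 else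
            if S a (x i) (x j) then
              ENNReal.ofReal (Real.exp g) * ENNReal.ofReal (Real.exp (-(v (x i) (x j)) / 2))
            else 1) ^ q := by
  classical
  -- left side
  have hL : (∏ i, ∏ j, if i = j then 1 else ENNReal.ofReal (Real.exp (-(u (x i) (x j)) / 2))) =
      ENNReal.ofReal (Real.exp (∑ i, ∑ j, if i = j then 0 else -(u (x i) (x j)) / 2)) := by
    rw [← exp_pair_prod]
    refine Finset.prod_congr rfl fun i _ => Finset.prod_congr rfl fun j _ => ?_
    split_ifs
    · simp
    · rfl
  -- the exponent of the factor of the shift `a`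
  set Y : ι → ℝ := fun a => (N : ℝ) * g +
    ∑ i, ∑ j, if i = j then 0 else if S a (x i) (x j) then g + -(v (x i) (x j)) / 2 else 0 with hY
  have hR : ∀ a, (ENNReal.ofReal (Real.exp g) ^ N *
          ∏ i, ∏ j, if i = j then 1 else
            if S a (x i) (x j) then
              ENNReal.ofReal (Real.exp g) * ENNReal.ofReal (Real.exp (-(v (x i) (x j)) / 2))
            else 1) ^ q = ENNReal.ofReal (Real.exp (Y a * q)) := by
    intro a
    have h1 : (∏ i, ∏ j, if i = j then 1 else
            if S a (x i) (x j) then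
              ENNReal.ofReal (Real.exp g) * ENNReal.ofReal (Real.exp (-(v (x i) (x j)) / 2))
            else 1) = ENNReal.ofReal (Real.exp (∑ i, ∑ j, if i = j then 0 else
              if S a (x i) (x j) then g + -(v (x i) (x j)) / 2 else 0)) := by
      rw [← exp_pair_prod]
      refine Finset.prod_congr rfl fun i _ => Finset.prod_congr rfl fun j _ => ?_
      split_ifs
      · simp
      · rw [Real.exp_add, ENNReal.ofReal_mul (Real.exp_pos _).le]
      · simp
    have h2 : ENNReal.ofReal (Real.exp g) ^ N = ENNReal.ofReal (Real.exp ((N : ℝ) * g)) := by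
      rw [Real.exp_nat_mul, ENNReal.ofReal_pow (Real.exp_pos _).le]
    rw [h1, h2, ← ENNReal.ofReal_mul (Real.exp_pos _).le, ← Real.exp_add,
      ENNReal.ofReal_rpow_of_pos (Real.exp_pos _), ← Real.exp_mul]
  rw [hL]
  simp only [hR]
  rw [← ENNReal.ofReal_prod_of_nonneg (fun a _ => (Real.exp_pos _).le), ← Real.exp_sum]
  apply ENNReal.ofReal_le_ofReal
  apply Real.exp_le_exp.mpr
  -- comparison of the exponents
  have hcnt : ∀ a, ((Finset.univ.filter
      (fun p : Fin N × Fin N => S a (x p.1) (x p.2))).card : ℝ) =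
      ∑ i, ∑ j, if i = j then (1 : ℝ) else if S a (x i) (x j) then 1 else 0 := by
    intro a
    rw [Finset.card_filter]
    push_cast
    rw [Fintype.sum_prod_type]
    refine Finset.sum_congr rfl fun i _ => Finset.sum_congr rfl fun j _ => ?_
    by_cases hij : i = j
    · subst hij
      simp [hS a (x i)]
    · simp [hij]
  have hYa : ∀ a, Y a = g * ((Finset.univ.filter
      (fun p : Fin N × Fin N => S a (x p.1) (x p.2))).card : ℝ) -
      (1 / 2) * ∑ i, ∑ j, if i = j then 0 else if S a (x i) (x j) then v (x i) (x j) else 0 := by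
    intro a
    rw [hcnt a, hY]
    simp only
    have hN : (N : ℝ) * g = ∑ i : Fin N, ∑ j : Fin N, if i = j then g else 0 := by
      simp
    rw [hN, ← Finset.sum_add_distrib, Finset.mul_sum, Finset.mul_sum, ← Finset.sum_sub_distrib]
    refine Finset.sum_congr rfl fun i _ => ?_
    rw [← Finset.sum_add_distrib, Finset.mul_sum, Finset.mul_sum, ← Finset.sum_sub_distrib]
    refine Finset.sum_congr rfl fun j _ => ?_
    split_ifs <;> ring
  have hsumY : ∑ a, Y a * q = -(1 / 2) * (q * ∑ a,
      ((∑ i, ∑ j, if i = j then 0 else if S a (x i) (x j) then v (x i) (x j) else 0)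
        - 2 * g * ((Finset.univ.filter
          (fun p : Fin N × Fin N => S a (x p.1) (x p.2))).card : ℝ))) := by
    rw [Finset.mul_sum, Finset.mul_sum]
    refine Finset.sum_congr rfl fun a _ => ?_
    rw [hYa a]
    ring
  have hLs : (∑ i, ∑ j, if i = j then 0 else -(u (x i) (x j)) / 2) =
      -(1 / 2) * ∑ i, ∑ j, if i = j then 0 else u (x i) (x j) := by
    rw [Finset.mul_sum]
    refine Finset.sum_congr rfl fun i _ => ?_
    rw [Finset.mul_sum]
    refine Finset.sum_congr rfl fun j _ => ?_
    split_ifs <;> ring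
  rw [hsumY, hLs]
  linarith

end Vale.Agent.H91.P171
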