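import Mathlib
import Vale.Agent.H96.P171.Defs
import Vale.Agent.H96.P171.LP.Params
import Vale.Agent.H79.LP.Cells
import Vale.Agent.H91.P171.ExpPair
import Vale.Agent.H4.P171.LP2
import Vale.Agent.H4.P171.XiBridge

/-!
# P171, LP1: the pointwise energy inequality (H2) and its exponentiated form (helper91)

`lp1E`: for every configuration `x : Fin N → E3`, `n ≥ 4`, `l = rho n`, `t'' = tcut t n`,
`s = sN t n σ`:
`l^-3 ∑_a ( ∑_{i ≠ j in one cell of the grid a} Phi t'' - 2 (s / l^3) sameCount_a ) ≤ ∑_{i ≠ j} Phi (t + σ e_n)`.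
`lp1X` / `lp1_hpt`: the same after exponentiation, verbatim the hypothesis `hpt` of
`Vale.Agent.H4.P171.LP2`; `lp1_LP2`: `LP2` applied.
Grids and counting: `Vale.Agent.H79.LP.Cells` (`shift_count`, `near_count`); parameters:
`Vale.Agent.H96.P171.LP.Params` (definitions only; the facts needed are proved here).
-/

open Classical
open scoped ENNReal

namespace Vale.Agent.H91.LP1

open Vale.Agent.H96.P171 (rho Rn phi0 bump Phi Adm addAt r0 piN tailS sN tcut)
open Vale.Agent.H79.LP (sameCell shift shift_count near_count sameCount cells_near_coord)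

abbrev E3' : Type := EuclideanSpace ℝ (Fin 3)

theorem lp1_rho_pos (n : ℕ) : 0 < rho n := Nat.factorial_pos _

theorem lp1_r0_lt (n : ℕ) (hn : 4 ≤ n) : r0 n + 1 < rho n := by
  unfold r0 rho
  have h1 : n - 1 + 1 = n := by omega
  rw [h1, Nat.factorial_succ]
  have h2 : Nat.factorial 4 ≤ n.factorial := Nat.factorial_le hn
  have h3 : Nat.factorial 4 = 24 := by decide
  nlinarith

theorem lp1_Rn_le_r0 (k n : ℕ) (hk : k < n) : Rn k ≤ (r0 n : ℝ) := by
  unfold Rn r0 rho
  have h1 : n - 1 + 1 = n := by omega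
  rw [h1]
  have h2 : (k + 1).factorial ≤ n.factorial := Nat.factorial_le (by omega)
  have h3 : ((k + 1).factorial : ℝ) ≤ (n.factorial : ℝ) := by exact_mod_cast h2
  push_cast
  linarith

theorem lp1_four_rho_le_Rn (k n : ℕ) (hk : n ≤ k) : 4 * (rho n : ℝ) ≤ Rn k := by
  unfold Rn rho
  have h2 : (n + 1).factorial ≤ (k + 1).factorial := Nat.factorial_le (by omega)
  have h3 : ((n + 1).factorial : ℝ) ≤ ((k + 1).factorial : ℝ) := by exact_mod_cast h2
  linarith

theorem lp1_Rn_pos (n : ℕ) : 0 < Rn n := by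
  unfold Rn rho
  positivity

theorem lp1_bump_nonneg (n : ℕ) (r : ℝ) : 0 ≤ bump n r := by
  unfold bump
  have := lp1_Rn_pos n
  split_ifs
  · positivity
  · exact le_refl _

theorem lp1_bump_le_one (n : ℕ) (r : ℝ) : bump n r ≤ 1 := by
  unfold bump
  have h6 : 6 ≤ Rn n := by
    unfold Rn rho
    have : (1 : ℝ) ≤ ((n + 1).factorial : ℝ) := by exact_mod_cast Nat.factorial_pos _
    linarith
  split_ifs
  · have h1 : (Rn n)⁻¹ ≤ 1 := inv_le_one_of_one_le₀ (by linarith)
    have h0 : 0 ≤ (Rn n)⁻¹ := by positivity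
    exact pow_le_one₀ h0 h1
  · norm_num

theorem lp1_phi0_nonneg (r : ℝ) : 0 ≤ phi0 r := by
  unfold phi0
  split_ifs
  · positivity
  · exact le_refl _

theorem lp1_piN_pos (n : ℕ) (hn : 4 ≤ n) : 0 < piN n := by
  unfold piN
  have h := lp1_r0_lt n hn
  have h1 : 0 < rho n - r0 n - 1 := by omega
  have h2 : (0 : ℝ) < ((rho n - r0 n - 1 : ℕ) : ℝ) := by exact_mod_cast h1
  have h3 : (0 : ℝ) < (rho n : ℝ) := by exact_mod_cast lp1_rho_pos n
  positivity

theorem lp1_piN_mul (n : ℕ) : piN n * (rho n : ℝ) ^ 3 = ((rho n - r0 n - 1 : ℕ) : ℝ) ^ 3 := by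
  unfold piN
  have h3 : (0 : ℝ) < (rho n : ℝ) := by exact_mod_cast lp1_rho_pos n
  rw [div_pow, div_mul_cancel₀ _ (by positivity)]

/-- the weights of the tail of `t + σ e_n` -/
noncomputable def lp1_w (t : ℕ → ℝ) (n : ℕ) (σ : ℝ) : ℕ → ℝ :=
  fun k => t (k + n) + if k = 0 then σ else 0

theorem lp1_w_nonneg (t : ℕ → ℝ) (h : Adm t) (n : ℕ) (σ : ℝ) (hσ : 0 ≤ σ) (k : ℕ) :
    0 ≤ lp1_w t n σ k := by
  unfold lp1_w
  have := h.1 (k + n)
  split_ifs <;> linarith

theorem lp1_w_summable (t : ℕ → ℝ) (h : Adm t) (n : ℕ) (σ : ℝ) : Summable (lp1_w t n σ) := by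
  unfold lp1_w
  exact ((summable_nat_add_iff n).mpr h.2).add (summable_of_ne_finset_zero (s := {0})
    (fun k hk => by simp at hk; simp [hk]))

theorem lp1_w_tsum (t : ℕ → ℝ) (h : Adm t) (n : ℕ) (σ : ℝ) :
    ∑' k, lp1_w t n σ k = tailS t n + σ := by
  unfold lp1_w tailS
  rw [Summable.tsum_add ((summable_nat_add_iff n).mpr h.2) (summable_of_ne_finset_zero (s := {0})
    (fun k hk => by simp at hk; simp [hk]))]
  congr 1
  rw [tsum_ite_eq]

theorem lp1_addAt_summable (t : ℕ → ℝ) (h : Adm t) (n : ℕ) (σ : ℝ) : Summable (addAt t n σ) := by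
  unfold addAt
  exact h.2.add (summable_of_ne_finset_zero (s := {n}) (fun k hk => by simp at hk; simp [hk]))

/-- splitting the potential of `t + σ e_n` at `n` -/
theorem lp1_Phi_addAt (t : ℕ → ℝ) (h : Adm t) (n : ℕ) (σ : ℝ) (hσ : 0 ≤ σ) (d : ℝ) :
    Phi (addAt t n σ) d = phi0 d -
      (∑ k ∈ Finset.range n, t k * bump k d + ∑' k, lp1_w t n σ k * bump (k + n) d) := by
  unfold Phi
  have hnn : ∀ k, 0 ≤ addAt t n σ k := by
    intro k
    unfold addAt
    have := h.1 k
    split_ifs <;> linarith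
  have hf : Summable fun k => addAt t n σ k * bump k d := by
    refine Summable.of_nonneg_of_le (fun k => mul_nonneg (hnn k) (lp1_bump_nonneg k d))
      (fun k => ?_) (lp1_addAt_summable t h n σ)
    calc addAt t n σ k * bump k d ≤ addAt t n σ k * 1 :=
          mul_le_mul_of_nonneg_left (lp1_bump_le_one k d) (hnn k)
      _ = addAt t n σ k := mul_one _
  rw [← hf.sum_add_tsum_nat_add n]
  congr 2
  · refine Finset.sum_congr rfl fun k hk => ?_
    have hk' : k ≠ n := (Finset.mem_range.mp hk).ne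
    unfold addAt
    rw [if_neg hk', add_zero]
  · refine tsum_congr fun k => ?_
    unfold addAt lp1_w
    have : (k + n = n) ↔ (k = 0) := by omega
    simp only [this]

/-- the potential of the cut parameter -/
theorem lp1_Phi_tcut (t : ℕ → ℝ) (n : ℕ) (d : ℝ) :
    Phi (tcut t n) d = phi0 d - ∑ k ∈ Finset.range n, t k / piN n * bump k d := by
  unfold Phi
  rw [tsum_eq_sum (s := Finset.range n)]
  · congr 1
    refine Finset.sum_congr rfl fun k hk => ?_
    unfold tcut
    rw [if_pos (Finset.mem_range.mp hk)]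
  · intro k hk
    unfold tcut
    rw [if_neg (fun hlt => hk (Finset.mem_range.mpr hlt)), zero_mul]

/-- Per-pair inequality for the core and the short bumps. -/
theorem lp1_pair_head (t : ℕ → ℝ) (h : Adm t) (n : ℕ) (hn : 4 ≤ n) (y z : E3') :
    ((rho n : ℝ) ^ 3)⁻¹ * (((Finset.univ.filter fun a : Fin 3 → Fin (rho n) =>
        sameCell (rho n) (shift (rho n) a) y z).card : ℝ) * Phi (tcut t n) (dist y z))
      ≤ phi0 (dist y z) - ∑ k ∈ Finset.range n, t k * bump k (dist y z) := by
  classical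
  set A : ℕ := (Finset.univ.filter fun a : Fin 3 → Fin (rho n) =>
        sameCell (rho n) (shift (rho n) a) y z).card with hA
  set d := dist y z with hd
  have hl0 : (0 : ℝ) < (rho n : ℝ) := by exact_mod_cast lp1_rho_pos n
  have hl3 : (0 : ℝ) < (rho n : ℝ) ^ 3 := by positivity
  have hπ := lp1_piN_pos n hn
  have hAle : (A : ℝ) ≤ (rho n : ℝ) ^ 3 := by
    have h1 : A ≤ (Finset.univ : Finset (Fin 3 → Fin (rho n))).card := Finset.card_filter_le _ _
    have h2 : (Finset.univ : Finset (Fin 3 → Fin (rho n))).card = rho n ^ 3 := by simp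
    rw [h2] at h1
    exact_mod_cast h1
  set c : ℝ := (A : ℝ) / (rho n : ℝ) ^ 3 with hc
  have hc0 : 0 ≤ c := by rw [hc]; positivity
  have hc1 : c ≤ 1 := by rw [hc, div_le_one hl3]; exact hAle
  have hrew : ((rho n : ℝ) ^ 3)⁻¹ * ((A : ℝ) * Phi (tcut t n) d) = c * Phi (tcut t n) d := by
    rw [hc]; ring
  rw [hrew, lp1_Phi_tcut, mul_sub, Finset.mul_sum]
  have h1 : c * phi0 d ≤ phi0 d := by
    have := lp1_phi0_nonneg d
    nlinarith
  have h2 : ∑ k ∈ Finset.range n, t k * bump k d ≤
      ∑ k ∈ Finset.range n, c * (t k / piN n * bump k d) := by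
    refine Finset.sum_le_sum fun k hk => ?_
    have hk' : k < n := Finset.mem_range.mp hk
    by_cases hdk : d < Rn k
    · -- the pair shares a cell for many shifts
      have hcoord : ∀ i, |y i - z i| ≤ (r0 n : ℝ) := by
        intro i
        have h3 := cells_near_coord y z i
        have h4 := lp1_Rn_le_r0 k n hk'
        linarith
      have hcount := shift_count (rho n) (r0 n) (lp1_r0_lt n hn) y z hcoord
      have hcount' : ((rho n - r0 n - 1 : ℕ) : ℝ) ^ 3 ≤ (A : ℝ) := by
        exact_mod_cast hcount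
      have hπc : piN n ≤ c := by
        rw [hc, le_div_iff₀ hl3, lp1_piN_mul]
        exact hcount'
      have h5 : 0 ≤ t k * bump k d := mul_nonneg (h.1 k) (lp1_bump_nonneg k d)
      have h6 : c * (t k / piN n * bump k d) = (c / piN n) * (t k * bump k d) := by
        field_simp
      rw [h6]
      have h7 : 1 ≤ c / piN n := by rw [le_div_iff₀ hπ]; linarith
      nlinarith
    · have hb : bump k d = 0 := by
        unfold bump
        rw [if_neg hdk]
      rw [hb]
      simp
  linarith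

/-- The long bumps: aggregated bound by the occupation numbers of every grid. -/
theorem lp1_long (n k : ℕ) {N : ℕ} (x : Fin N → E3') :
    (∑ i, ∑ j, if i = j then 0 else bump (k + n) (dist (x i) (x j))) ≤
      21 / (rho n : ℝ) ^ 3 * (((rho n : ℝ) ^ 3)⁻¹ * ∑ a : Fin 3 → Fin (rho n),
        ((Finset.univ.filter (fun p : Fin N × Fin N =>
          sameCell (rho n) (shift (rho n) a) (x p.1) (x p.2))).card : ℝ)) := by
  set B : ℝ := ∑ i, ∑ j, if i = j then 0 else bump (k + n) (dist (x i) (x j)) with hB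
  have hl0 : (0 : ℝ) < (rho n : ℝ) := by exact_mod_cast lp1_rho_pos n
  have hl3 : (0 : ℝ) < (rho n : ℝ) ^ 3 := by positivity
  set R : ℝ := Rn (k + n) with hR
  have hR0 : 0 < R := lp1_Rn_pos _
  have h4 : 4 * (rho n : ℝ) ≤ R := lp1_four_rho_le_Rn (k + n) n (by omega)
  have ha : ∀ a : Fin 3 → Fin (rho n), B ≤ 21 / (rho n : ℝ) ^ 3 *
      ((Finset.univ.filter (fun p : Fin N × Fin N =>
          sameCell (rho n) (shift (rho n) a) (x p.1) (x p.2))).card : ℝ) := by
    intro a
    have h1 : B = ∑ p : Fin N × Fin N,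
        if p.1 ≠ p.2 ∧ dist (x p.1) (x p.2) < R then (R⁻¹) ^ 3 else 0 := by
      rw [hB, ← Fintype.sum_prod_type' (fun i j : Fin N =>
        if i = j then 0 else bump (k + n) (dist (x i) (x j)))]
      refine Finset.sum_congr rfl fun p _ => ?_
      by_cases hp : p.1 = p.2
      · simp [hp]
      · simp only [if_neg hp]
        unfold bump
        by_cases hd : dist (x p.1) (x p.2) < Rn (k + n)
        · rw [if_pos hd, if_pos ⟨hp, hd⟩]
        · rw [if_neg hd, if_neg (fun hh => hd hh.2)]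
    have h2 : (∑ p : Fin N × Fin N,
        if p.1 ≠ p.2 ∧ dist (x p.1) (x p.2) < R then (R⁻¹) ^ 3 else 0) =
        (R⁻¹) ^ 3 * ((Finset.univ.filter
        (fun p : Fin N × Fin N => p.1 ≠ p.2 ∧ dist (x p.1) (x p.2) < R)).card : ℝ) := by
      rw [← Finset.sum_filter, Finset.sum_const, nsmul_eq_mul, mul_comm]
    have h3 := near_count (rho n) (lp1_rho_pos n) (shift (rho n) a) R h4 x
    unfold sameCount at h3
    rw [h1, h2]
    have hRi : 0 ≤ (R⁻¹) ^ 3 := by positivity
    calc (R⁻¹) ^ 3 * ((Finset.univ.filter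
        (fun p : Fin N × Fin N => p.1 ≠ p.2 ∧ dist (x p.1) (x p.2) < R)).card : ℝ)
        ≤ (R⁻¹) ^ 3 * (21 * R ^ 3 / (rho n : ℝ) ^ 3 * ((Finset.univ.filter (fun p : Fin N × Fin N =>
          sameCell (rho n) (shift (rho n) a) (x p.1) (x p.2))).card : ℝ)) :=
          mul_le_mul_of_nonneg_left h3 hRi
      _ = 21 / (rho n : ℝ) ^ 3 * ((Finset.univ.filter (fun p : Fin N × Fin N =>
          sameCell (rho n) (shift (rho n) a) (x p.1) (x p.2))).card : ℝ) := by
          field_simp
  have hsum : ∑ _a : Fin 3 → Fin (rho n), B ≤ ∑ a : Fin 3 → Fin (rho n), 21 / (rho n : ℝ) ^ 3 *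
      ((Finset.univ.filter (fun p : Fin N × Fin N =>
          sameCell (rho n) (shift (rho n) a) (x p.1) (x p.2))).card : ℝ) :=
    Finset.sum_le_sum fun a _ => ha a
  rw [Finset.sum_const, Finset.card_univ, nsmul_eq_mul, ← Finset.mul_sum] at hsum
  have hcard : ((Fintype.card (Fin 3 → Fin (rho n)) : ℕ) : ℝ) = (rho n : ℝ) ^ 3 := by
    simp
  rw [hcard] at hsum
  have : B ≤ ((rho n : ℝ) ^ 3)⁻¹ * (21 / (rho n : ℝ) ^ 3 * ∑ a : Fin 3 → Fin (rho n),
      ((Finset.univ.filter (fun p : Fin N × Fin N =>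
          sameCell (rho n) (shift (rho n) a) (x p.1) (x p.2))).card : ℝ)) := by
    rw [← div_eq_inv_mul, le_div_iff₀ hl3]
    linarith
  calc B ≤ _ := this
    _ = _ := by ring

/-- The tail of `t + σ e_n`: all bumps from `n` on. -/
theorem lp1_tail (t : ℕ → ℝ) (h : Adm t) (σ : ℝ) (hσ : 0 ≤ σ) (n : ℕ) {N : ℕ}
    (x : Fin N → E3') :
    (∑ i, ∑ j, if i = j then 0 else
        ∑' k, lp1_w t n σ k * bump (k + n) (dist (x i) (x j))) ≤
      ((rho n : ℝ) ^ 3)⁻¹ * ∑ a : Fin 3 → Fin (rho n),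
        2 * (sN t n σ / (rho n : ℝ) ^ 3) * ((Finset.univ.filter (fun p : Fin N × Fin N =>
          sameCell (rho n) (shift (rho n) a) (x p.1) (x p.2))).card : ℝ) := by
  set w := lp1_w t n σ with hw
  have hw0 : ∀ k, 0 ≤ w k := lp1_w_nonneg t h n σ hσ
  have hws : Summable w := lp1_w_summable t h n σ
  set M : ℝ := 21 / (rho n : ℝ) ^ 3 * (((rho n : ℝ) ^ 3)⁻¹ * ∑ a : Fin 3 → Fin (rho n),
        ((Finset.univ.filter (fun p : Fin N × Fin N =>
          sameCell (rho n) (shift (rho n) a) (x p.1) (x p.2))).card : ℝ)) with hM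
  set B : ℕ → ℝ := fun k => ∑ i, ∑ j, if i = j then 0 else bump (k + n) (dist (x i) (x j))
    with hB
  have hBM : ∀ k, B k ≤ M := fun k => lp1_long n k x
  have hB0 : ∀ k, 0 ≤ B k := by
    intro k
    refine Finset.sum_nonneg fun i _ => Finset.sum_nonneg fun j _ => ?_
    split_ifs
    · exact le_refl _
    · exact lp1_bump_nonneg _ _
  -- summability of the pair series
  have hs1 : ∀ i j : Fin N, Summable fun k =>
      if i = j then 0 else w k * bump (k + n) (dist (x i) (x j)) := by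
    intro i j
    by_cases hij : i = j
    · simp only [if_pos hij]
      exact summable_zero
    · simp only [if_neg hij]
      refine Summable.of_nonneg_of_le (fun k => mul_nonneg (hw0 k) (lp1_bump_nonneg _ _))
        (fun k => ?_) hws
      calc w k * bump (k + n) (dist (x i) (x j)) ≤ w k * 1 :=
            mul_le_mul_of_nonneg_left (lp1_bump_le_one _ _) (hw0 k)
        _ = w k := mul_one _
  -- exchange of the sums
  have hex : (∑ i, ∑ j, if i = j then 0 else
        ∑' k, w k * bump (k + n) (dist (x i) (x j))) = ∑' k, w k * B k := by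
    have h1 : ∀ i j : Fin N, (if i = j then 0 else
        ∑' k, w k * bump (k + n) (dist (x i) (x j))) =
        ∑' k, if i = j then 0 else w k * bump (k + n) (dist (x i) (x j)) := by
      intro i j
      by_cases hij : i = j
      · simp [hij]
      · simp [hij]
    simp only [h1]
    have h2 : ∀ i : Fin N, ∑ j, ∑' k, (if i = j then 0 else
        w k * bump (k + n) (dist (x i) (x j))) =
        ∑' k, ∑ j, if i = j then 0 else w k * bump (k + n) (dist (x i) (x j)) := by
      intro i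
      rw [Summable.tsum_finsetSum (fun j _ => hs1 i j)]
    simp only [h2]
    rw [← Summable.tsum_finsetSum (fun i _ => summable_sum (fun j _ => hs1 i j))]
    refine tsum_congr fun k => ?_
    rw [hB]
    simp only
    rw [Finset.mul_sum]
    refine Finset.sum_congr rfl fun i _ => ?_
    rw [Finset.mul_sum]
    refine Finset.sum_congr rfl fun j _ => ?_
    split_ifs
    · simp
    · rfl
  rw [hex]
  have hsR : Summable fun k => w k * M := hws.mul_right M
  have hsL : Summable fun k => w k * B k :=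
    Summable.of_nonneg_of_le (fun k => mul_nonneg (hw0 k) (hB0 k))
      (fun k => mul_le_mul_of_nonneg_left (hBM k) (hw0 k)) hsR
  have h3 : ∑' k, w k * B k ≤ ∑' k, w k * M :=
    Summable.tsum_le_tsum (fun k => mul_le_mul_of_nonneg_left (hBM k) (hw0 k)) hsL hsR
  have h4 : ∑' k, w k * M = (tailS t n + σ) * M := by
    rw [tsum_mul_right, hw, lp1_w_tsum t h n σ]
  rw [h4] at h3
  refine h3.trans (le_of_eq ?_)
  rw [hM]
  unfold sN
  rw [← Finset.mul_sum]
  ring

/-- LP1-E: the pointwise energy inequality (H2), for every configuration. -/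
theorem lp1E (t : ℕ → ℝ) (h : Adm t) (σ : ℝ) (hσ : 0 ≤ σ) (n : ℕ) (hn : 4 ≤ n) {N : ℕ}
    (x : Fin N → E3') :
    ((rho n : ℝ) ^ 3)⁻¹ * ∑ a : Fin 3 → Fin (rho n),
        ((∑ i, ∑ j, if i = j then 0 else
            if sameCell (rho n) (shift (rho n) a) (x i) (x j)
              then Phi (tcut t n) (dist (x i) (x j)) else 0)
          - 2 * (sN t n σ / (rho n : ℝ) ^ 3) * ((Finset.univ.filter (fun p : Fin N × Fin N =>
              sameCell (rho n) (shift (rho n) a) (x p.1) (x p.2))).card : ℝ))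
      ≤ ∑ i, ∑ j, if i = j then 0 else Phi (addAt t n σ) (dist (x i) (x j)) := by
  -- right side: head minus tail
  have hR : (∑ i, ∑ j, if i = j then 0 else Phi (addAt t n σ) (dist (x i) (x j))) =
      (∑ i, ∑ j, if i = j then 0 else (phi0 (dist (x i) (x j)) -
          ∑ k ∈ Finset.range n, t k * bump k (dist (x i) (x j)))) -
      ∑ i, ∑ j, if i = j then 0 else
        ∑' k, lp1_w t n σ k * bump (k + n) (dist (x i) (x j)) := by
    rw [← Finset.sum_sub_distrib]
    refine Finset.sum_congr rfl fun i _ => ?_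
    rw [← Finset.sum_sub_distrib]
    refine Finset.sum_congr rfl fun j _ => ?_
    split_ifs
    · simp
    · rw [lp1_Phi_addAt t h n σ hσ]
      ring
  -- left side: the cell sums, exchanged
  have hL : ∑ a : Fin 3 → Fin (rho n), (∑ i, ∑ j, if i = j then 0 else
            if sameCell (rho n) (shift (rho n) a) (x i) (x j)
              then Phi (tcut t n) (dist (x i) (x j)) else 0) =
      ∑ i, ∑ j, if i = j then 0 else
        ((Finset.univ.filter fun a : Fin 3 → Fin (rho n) =>
          sameCell (rho n) (shift (rho n) a) (x i) (x j)).card : ℝ) *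
            Phi (tcut t n) (dist (x i) (x j)) := by
    rw [Finset.sum_comm]
    refine Finset.sum_congr rfl fun i _ => ?_
    rw [Finset.sum_comm]
    refine Finset.sum_congr rfl fun j _ => ?_
    by_cases hij : i = j
    · simp [hij]
    · simp only [if_neg hij]
      rw [← Finset.sum_filter, Finset.sum_const, nsmul_eq_mul]
  have hhead : ((rho n : ℝ) ^ 3)⁻¹ * (∑ i, ∑ j, if i = j then 0 else
        ((Finset.univ.filter fun a : Fin 3 → Fin (rho n) =>
          sameCell (rho n) (shift (rho n) a) (x i) (x j)).card : ℝ) *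
            Phi (tcut t n) (dist (x i) (x j))) ≤
      ∑ i, ∑ j, if i = j then 0 else (phi0 (dist (x i) (x j)) -
          ∑ k ∈ Finset.range n, t k * bump k (dist (x i) (x j))) := by
    rw [Finset.mul_sum]
    refine Finset.sum_le_sum fun i _ => ?_
    rw [Finset.mul_sum]
    refine Finset.sum_le_sum fun j _ => ?_
    split_ifs
    · simp
    · exact lp1_pair_head t h n hn (x i) (x j)
  have htail := lp1_tail t h σ hσ n x
  rw [hR, Finset.sum_sub_distrib, mul_sub, hL]
  linarith

open Vale.Agent.H4.P171 (pairFactor chiGrid)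

/-- LP1-X: the pointwise inequality between the configuration weights, in the spelling of the
hypothesis `hpt` of `Vale.Agent.H4.P171.LP2` (valid for every configuration). -/
theorem lp1X (t : ℕ → ℝ) (h : Adm t) (σ : ℝ) (hσ : 0 ≤ σ) (n : ℕ) (hn : 4 ≤ n) (N : ℕ)
    (x : Fin N → E3') :
    (∏ i, ∏ j, if i = j then 1 else pairFactor (Phi (addAt t n σ)) (x i) (x j)) ≤
      ∏ a : Fin 3 → Fin (rho n),
        (ENNReal.ofReal (Real.exp (sN t n σ / (rho n : ℝ) ^ 3)) ^ N * ∏ i, ∏ j,
          if i = j then 1 else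
            chiGrid (rho n) (shift (rho n) a)
              (ENNReal.ofReal (Real.exp (sN t n σ / (rho n : ℝ) ^ 3)))
              (pairFactor (Phi (tcut t n))) (x i) (x j)) ^ (((rho n : ℝ) ^ 3)⁻¹) := by
  have key := Vale.Agent.H91.P171.exp_pair x (fun y z => Phi (addAt t n σ) (dist y z))
    (fun y z => Phi (tcut t n) (dist y z))
    (fun (a : Fin 3 → Fin (rho n)) y z => sameCell (rho n) (shift (rho n) a) y z)
    (fun a y => rfl) (sN t n σ / (rho n : ℝ) ^ 3) (((rho n : ℝ) ^ 3)⁻¹)
    (lp1E t h σ hσ n hn x)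
  exact key

/-- The hypothesis `hpt` of `LP2`, for every `K`. -/
theorem lp1_hpt (t : ℕ → ℝ) (h : Adm t) (σ : ℝ) (hσ : 0 ≤ σ) (n : ℕ) (hn : 4 ≤ n) (K : ℕ) :
    ∀ (N : ℕ) (x : Fin N → E3'), Function.Injective x →
      (∀ i, x i ∈ Vale.Agent.H79.LP.box ((K : ℝ) * (rho n : ℝ))) →
      (∏ i, ∏ j, if i = j then 1 else pairFactor (Phi (addAt t n σ)) (x i) (x j)) ≤
        ∏ a : Fin 3 → Fin (rho n),
          (ENNReal.ofReal (Real.exp (sN t n σ / (rho n : ℝ) ^ 3)) ^ N * ∏ i, ∏ j,
            if i = j then 1 else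
              chiGrid (rho n) (shift (rho n) a)
                (ENNReal.ofReal (Real.exp (sN t n σ / (rho n : ℝ) ^ 3)))
                (pairFactor (Phi (tcut t n))) (x i) (x j)) ^ (((rho n : ℝ) ^ 3)⁻¹) :=
  fun N x _ _ => lp1X t h σ hσ n hn N x

/-- `LP2` applied: the partition function of the box for `t + σ e_n` against the one-cell
partition function for the cut parameter. -/
theorem lp1_LP2 (t : ℕ → ℝ) (h : Adm t) (σ : ℝ) (hσ : 0 ≤ σ) (n : ℕ) (hn : 4 ≤ n) (K : ℕ)
    (c : ℝ≥0∞) (hχ2 : Measurable (Function.uncurry (pairFactor (Phi (tcut t n))))) :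
    Vale.Agent.H27.PF.Xi MeasureTheory.volume
        ((Vale.Agent.H79.LP.box ((K : ℝ) * (rho n : ℝ))).indicator fun _ => c)
        (pairFactor (Phi (addAt t n σ)))
      ≤ (Vale.Agent.H27.PF.Xi MeasureTheory.volume
          ((Vale.Agent.H79.LP.cell (rho n) 0 0).indicator fun _ =>
            c * ENNReal.ofReal (Real.exp (sN t n σ / (rho n : ℝ) ^ 3)))
          (fun x y => ENNReal.ofReal (Real.exp (sN t n σ / (rho n : ℝ) ^ 3)) *
            pairFactor (Phi (tcut t n)) x y)) ^ ((K + 2) ^ 3) := by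
  refine Vale.Agent.H4.P171.LP2 (rho n) K (lp1_rho_pos n) c _ _ _ hχ2 ?_
    (lp1_hpt t h σ hσ n hn K)
  intro v y z
  unfold pairFactor
  rw [dist_add_right]

end Vale.Agent.H91.LP1
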